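import Mathlib

namespace Vale.Agent.Results.P208.ConvexDoubling

open Metric

section General

variable {E : Type*} [NormedAddCommGroup E] [InnerProductSpace ℝ E]

/-- `X` is doubling with constant at most `N` (weak form: every relative open ball of `X` is
covered by at most `N` closed balls of half the radius centred in `X`). -/
def IsDoublingWith (X : Set E) (N : ℕ) : Prop :=
  ∀ x ∈ X, ∀ r : ℝ, 0 < r → ∃ C : Finset E, (∀ c ∈ C, c ∈ X) ∧ C.card ≤ N ∧
    ∀ y ∈ X, dist y x < r → ∃ c ∈ C, dist y c ≤ r / 2

/-- Key lemma: a convex doubling set cannot contain a point together with too many linearly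
independent directions. -/
lemma card_le_of_linearIndependent {X : Set E} (hX : Convex ℝ X) {N : ℕ}
    (hd : IsDoublingWith X N) {k : ℕ} (v : Fin k → E) (hv : LinearIndependent ℝ v)
    (x0 : E) (hx0 : x0 ∈ X) (hxv : ∀ i, x0 + v i ∈ X) : 2 * k ≤ N := by
  classical
  set U : Submodule ℝ E := Submodule.span ℝ (Set.range v) with hU
  have : FiniteDimensional ℝ U := FiniteDimensional.span_of_finite ℝ (Set.finite_range v)
  have hrank : Module.finrank ℝ U = k := by
    rw [hU, finrank_span_eq_card hv, Fintype.card_fin]
  -- the convex set inside `U`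
  set XU : Set U := {u : U | x0 + (u : E) ∈ X} with hXU
  have hXUconv : Convex ℝ XU := by
    intro a ha b hb s t hs ht hst
    have := hX ha hb hs ht hst
    simp only [hXU, Set.mem_ofPred_eq] at ha hb ⊢
    have e : x0 + ((s • a + t • b : U) : E) = s • (x0 + (a : E)) + t • (x0 + (b : E)) := by
      push_cast
      rw [smul_add, smul_add]
      have : x0 = s • x0 + t • x0 := by rw [← add_smul, hst, one_smul]
      nth_rewrite 1 [this]
      abel
    rw [e]
    exact this
  have h0 : (0 : U) ∈ XU := by simp [hXU, hx0]
  have hvU : ∀ i, (⟨v i, Submodule.subset_span (Set.mem_range_self i)⟩ : U) ∈ XU := by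
    intro i
    simp [hXU, hxv i]
  have hspan : affineSpan ℝ XU = ⊤ := by
    rw [AffineSubspace.affineSpan_eq_top_iff_vectorSpan_eq_top_of_nonempty ℝ U U ⟨0, h0⟩]
    rw [eq_top_iff]
    intro u _
    have hu : (u : E) ∈ Submodule.span ℝ (Set.range v) := u.2
    -- every element of U is a combination of the v i
    have key : ∀ w : E, w ∈ Submodule.span ℝ (Set.range v) →
        ∀ hw : w ∈ U, (⟨w, hw⟩ : U) ∈ vectorSpan ℝ XU := by
      intro w hw
      induction hw using Submodule.span_induction with
      | mem x hx =>
        intro hw'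
        obtain ⟨i, rfl⟩ := hx
        have := vsub_mem_vectorSpan ℝ (hvU i) h0
        simpa using this
      | zero => intro _; exact Submodule.zero_mem _
      | add x y hx hy hx' hy' =>
        intro _
        have := Submodule.add_mem _ (hx' hx) (hy' hy)
        simpa using this
      | smul a x hx hx' =>
        intro _
        have := Submodule.smul_mem _ a (hx' hx)
        simpa using this
    exact key u hu u.2
  obtain ⟨c, hc⟩ := (hXUconv.interior_nonempty_iff_affineSpan_eq_top).mpr hspan
  rw [mem_interior_iff_mem_nhds, Metric.mem_nhds_iff] at hc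
  obtain ⟨ρ, hρ, hball⟩ := hc
  -- an orthonormal basis of `U`
  set b := stdOrthonormalBasis ℝ U with hb
  have hbo : Orthonormal ℝ b := b.orthonormal
  set s : ℝ := ρ / 2 with hs
  have hs0 : 0 < s := by positivity
  -- the `2 * finrank U` points
  set ε : Fin (Module.finrank ℝ U) × Bool → ℝ := fun a => if a.2 then s else -s with hε
  set P : Fin (Module.finrank ℝ U) × Bool → U := fun a => c + ε a • b a.1 with hP
  have hεabs : ∀ a, |ε a| = s := by
    intro a
    simp only [hε]
    split_ifs
    · exact abs_of_pos hs0
    · rw [abs_neg, abs_of_pos hs0]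
  have hPc : ∀ a, ‖P a - c‖ = s := by
    intro a
    simp only [hP, add_sub_cancel_left, norm_smul, Real.norm_eq_abs, hεabs]
    rw [hbo.1 a.1, mul_one]
  have hPX : ∀ a, x0 + (P a : E) ∈ X := by
    intro a
    have : P a ∈ ball c ρ := by
      rw [Metric.mem_ball, dist_eq_norm, hPc a]
      simp only [hs]
      linarith
    exact hball this
  have hcX : x0 + (c : E) ∈ X := hball (Metric.mem_ball_self hρ)
  have hsep : ∀ a a', a ≠ a' → 2 * s ^ 2 ≤ ‖P a - P a'‖ ^ 2 := by
    intro a a' hne
    have e1 : P a - P a' = ε a • b a.1 - ε a' • b a'.1 := by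
      simp only [hP]; abel
    rw [e1, @norm_sub_sq_real, norm_smul, norm_smul, Real.norm_eq_abs, Real.norm_eq_abs,
      hεabs, hεabs, hbo.1, hbo.1, real_inner_smul_left, real_inner_smul_right]
    by_cases hi : a.1 = a'.1
    · have hσ : a.2 ≠ a'.2 := fun h => hne (Prod.ext hi h)
      rw [hi, real_inner_self_eq_norm_sq, hbo.1]
      have : ε a * ε a' = -(s ^ 2) := by
        simp only [hε]
        rcases Bool.eq_false_or_eq_true a.2 with h1 | h1 <;>
          rcases Bool.eq_false_or_eq_true a'.2 with h2 | h2 <;>
          simp_all <;> ring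
      nlinarith [this]
    · rw [hbo.2 hi]
      nlinarith
  -- apply the doubling property
  obtain ⟨C, hCX, hCcard, hCcov⟩ := hd (x0 + (c : E)) hcX (6 / 5 * s) (by positivity)
  have hclose : ∀ a, ∃ c' ∈ C, dist (x0 + (P a : E)) c' ≤ 6 / 5 * s / 2 := by
    intro a
    apply hCcov _ (hPX a)
    rw [dist_eq_norm]
    have : x0 + (P a : E) - (x0 + (c : E)) = ((P a - c : U) : E) := by
      push_cast; abel
    rw [this, ← Submodule.coe_norm, hPc a]
    linarith
  choose g hgC hgdist using hclose
  have hginj : Function.Injective g := by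
    intro a a' hgg
    by_contra hne
    have h1 := hgdist a
    have h2 := hgdist a'
    rw [hgg] at h1
    have h3 : dist (x0 + (P a : E)) (x0 + (P a' : E)) ≤ 6 / 5 * s := by
      calc dist (x0 + (P a : E)) (x0 + (P a' : E))
          ≤ dist (x0 + (P a : E)) (g a') + dist (g a') (x0 + (P a' : E)) := dist_triangle _ _ _
        _ ≤ 6 / 5 * s / 2 + 6 / 5 * s / 2 := by
            rw [dist_comm (g a')]
            exact add_le_add h1 h2
        _ = 6 / 5 * s := by ring
    have h4 : dist (x0 + (P a : E)) (x0 + (P a' : E)) = ‖P a - P a'‖ := by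
      rw [dist_eq_norm]
      have : x0 + (P a : E) - (x0 + (P a' : E)) = ((P a - P a' : U) : E) := by
        push_cast; abel
      rw [this, ← Submodule.coe_norm]
    rw [h4] at h3
    have h5 := hsep a a' hne
    have h6 : 0 ≤ ‖P a - P a'‖ := norm_nonneg _
    nlinarith
  have hcard : Fintype.card (Fin (Module.finrank ℝ U) × Bool) ≤ C.card := by
    have := Finset.card_le_card_of_injOn g (s := Finset.univ) (t := C)
      (fun a _ => hgC a) (fun a _ a' _ h => hginj h)
    simpa using this
  rw [Fintype.card_prod, Fintype.card_fin, Fintype.card_bool, hrank] at hcard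
  omega

/-- The span of the differences `x - x0`, `x` in a convex doubling set, is finite-dimensional. -/
lemma finiteDimensional_span {X : Set E} (hX : Convex ℝ X) {N : ℕ} (hd : IsDoublingWith X N)
    (x0 : E) (hx0 : x0 ∈ X) :
    FiniteDimensional ℝ (Submodule.span ℝ ((fun x => x - x0) '' X)) := by
  classical
  obtain ⟨b, hbS, hbspan, hbli⟩ := exists_linearIndependent ℝ ((fun x => x - x0) '' X)
  have hbfin : b.Finite := by
    by_contra hinf
    obtain ⟨t, htb, htcard⟩ := Set.Infinite.exists_subset_card_eq (s := b) hinf (N + 1)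
    let e : Fin (N + 1) ≃ t := (Fin.castOrderIso htcard.symm).toEquiv.trans t.equivFin.symm
    let f : Fin (N + 1) → b := fun i => ⟨(e i : E), htb (e i).2⟩
    have hf : Function.Injective f := by
      intro i j hij
      have : (e i : E) = (e j : E) := congrArg (fun z : b => (z : E)) hij
      exact e.injective (Subtype.ext this)
    have hli : LinearIndependent ℝ (fun i : Fin (N + 1) => ((f i : b) : E)) := hbli.comp f hf
    have hmem : ∀ i : Fin (N + 1), x0 + ((f i : b) : E) ∈ X := by
      intro i
      obtain ⟨x, hx, hxe⟩ := hbS (f i).2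
      have : x0 + ((f i : b) : E) = x := by
        rw [← hxe]; simp
      rw [this]
      exact hx
    have := card_le_of_linearIndependent hX hd _ hli x0 hx0 hmem
    omega
  rw [← hbspan]
  exact FiniteDimensional.span_of_finite ℝ hbfin

/-- A set lying in a translate of a finite-dimensional subspace embeds isometrically into a
Euclidean space. -/
lemma exists_isometric_of_finiteDimensional {X : Set E} (x0 : E) (V : Submodule ℝ E)
    [FiniteDimensional ℝ V] (hXV : ∀ x ∈ X, x - x0 ∈ V) :
    ∃ (k : ℕ) (f : E → EuclideanSpace ℝ (Fin k)),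
      ∀ x ∈ X, ∀ y ∈ X, dist (f x) (f y) = dist x y := by
  refine ⟨Module.finrank ℝ V,
    fun x => (stdOrthonormalBasis ℝ V).repr (V.orthogonalProjectionOnto (x - x0)), ?_⟩
  intro x hx y hy
  rw [dist_eq_norm, dist_eq_norm, ← map_sub, LinearIsometryEquiv.norm_map, ← map_sub]
  have e : x - x0 - (y - x0) = x - y := by abel
  rw [e]
  have hmem : x - y ∈ V := by
    have := V.sub_mem (hXV x hx) (hXV y hy)
    rwa [e] at this
  have := Submodule.orthogonalProjectionOnto_mem_subspace_eq_self (K := V) ⟨x - y, hmem⟩
  simp only at this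
  rw [this, Submodule.coe_norm]

end General

/-- Every convex doubling subset `X` of a real inner product space `E` (in particular of the
sequence space `ℓ_2`) admits an isometric embedding into a finite-dimensional Euclidean
space `ℝ^k`. -/
theorem result {E : Type} [NormedAddCommGroup E] [InnerProductSpace ℝ E] (X : Set E)
    (hX : Convex ℝ X) (N : ℕ) (hd : IsDoublingWith X N) :
    ∃ (k : ℕ) (f : E → EuclideanSpace ℝ (Fin k)),
      ∀ x ∈ X, ∀ y ∈ X, dist (f x) (f y) = dist x y := by
  rcases Set.eq_empty_or_nonempty X with hempty | ⟨x0, hx0⟩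
  · exact ⟨0, fun _ => 0, fun x hx => by simp [hempty] at hx⟩
  · have := finiteDimensional_span hX hd x0 hx0
    exact exists_isometric_of_finiteDimensional x0 (Submodule.span ℝ ((fun x => x - x0) '' X))
      (fun x hx => Submodule.subset_span ⟨x, hx, rfl⟩)

/-- The case of the problem: `E = ℓ_2`, the space of real square-summable sequences. -/
theorem result_ell2 (X : Set (lp (fun _ : ℕ => ℝ) 2)) (hX : Convex ℝ X) (N : ℕ)
    (hd : IsDoublingWith X N) :
    ∃ (k : ℕ) (f : lp (fun _ : ℕ => ℝ) 2 → EuclideanSpace ℝ (Fin k)),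
      ∀ x ∈ X, ∀ y ∈ X, dist (f x) (f y) = dist x y :=
  result X hX N hd

end Vale.Agent.Results.P208.ConvexDoubling
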