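import Vale.Agent.Results.P208.ConvexDoubling

/-!
P208 (Lang-Plaut problem): the convex case with a bound on the dimension in terms of the
doubling constant alone.

Theorem: let `E` be a real inner product space (for instance `ℓ_2`), `X` a nonempty convex
subset of `E` and `N` a natural number such that every ball of `X` (centre `x` in `X`, radius
`r > 0`) is covered by at most `N` balls of radius `r / 2` with centres in `X`.  Then there are
`k` with `2 ^ k ≤ N` and a map from `E` to the Euclidean space `ℝ^k` that preserves all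
distances between points of `X`.

Proof: by the hand-in `ConvexDoubling` the differences `x - x0` (`x` in `X`) span a subspace `V`
of finite dimension `k`, and `k` of them are linearly independent.  Inside `V` the convex set
`X - x0` has nonempty interior, so it contains a ball of some radius `ρ > 0`; this ball is
covered by at most `N` balls of radius `ρ / 2`, and comparing `k`-dimensional volumes gives
`ρ ^ k ≤ N * (ρ / 2) ^ k`, that is `2 ^ k ≤ N`.
-/

namespace Vale.Agent.Results.P208.ConvexDoublingLogBound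

open Metric MeasureTheory Vale.Agent.Results.P208.ConvexDoubling

section General

variable {E : Type*} [NormedAddCommGroup E] [InnerProductSpace ℝ E]

/-- Inside the span `U` of the directions `v i`, the convex set `X - x0` contains a ball. -/
lemma exists_ball_subset {X : Set E} (hX : Convex ℝ X) {k : ℕ} (v : Fin k → E)
    (x0 : E) (hx0 : x0 ∈ X) (hxv : ∀ i, x0 + v i ∈ X) :
    ∃ c : Submodule.span ℝ (Set.range v), ∃ ρ : ℝ, 0 < ρ ∧
      ∀ u : Submodule.span ℝ (Set.range v), ‖u - c‖ < ρ → x0 + (u : E) ∈ X := by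
  classical
  set U : Submodule ℝ E := Submodule.span ℝ (Set.range v) with hU
  have : FiniteDimensional ℝ U := FiniteDimensional.span_of_finite ℝ (Set.finite_range v)
  -- the convex set inside `U`
  set XU : Set U := {u : U | x0 + (u : E) ∈ X} with hXU
  have hXUconv : Convex ℝ XU := by
    intro a ha b hb s t hs ht hst
    have := hX ha hb hs ht hst
    simp only [hXU, Set.mem_ofPred_eq] at ha hb ⊢
    have e : x0 + ((s • a + t • b : U) : E) = s • (x0 + (a : E)) + t • (x0 + (b : E)) := by
      push_cast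
      rw [smul_add, smul_add]
      have : x0 = s • x0 + t • x0 := by rw [← add_smul, hst, one_smul]
      nth_rewrite 1 [this]
      abel
    rw [e]
    exact this
  have h0 : (0 : U) ∈ XU := by simp [hXU, hx0]
  have hvU : ∀ i, (⟨v i, Submodule.subset_span (Set.mem_range_self i)⟩ : U) ∈ XU := by
    intro i
    simp [hXU, hxv i]
  have hspan : affineSpan ℝ XU = ⊤ := by
    rw [AffineSubspace.affineSpan_eq_top_iff_vectorSpan_eq_top_of_nonempty ℝ U U ⟨0, h0⟩]
    rw [eq_top_iff]
    intro u _
    have hu : (u : E) ∈ Submodule.span ℝ (Set.range v) := u.2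
    have key : ∀ w : E, w ∈ Submodule.span ℝ (Set.range v) →
        ∀ hw : w ∈ U, (⟨w, hw⟩ : U) ∈ vectorSpan ℝ XU := by
      intro w hw
      induction hw using Submodule.span_induction with
      | mem x hx =>
        intro hw'
        obtain ⟨i, rfl⟩ := hx
        have := vsub_mem_vectorSpan ℝ (hvU i) h0
        simpa using this
      | zero => intro _; exact Submodule.zero_mem _
      | add x y hx hy hx' hy' =>
        intro _
        have := Submodule.add_mem _ (hx' hx) (hy' hy)
        simpa using this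
      | smul a x hx hx' =>
        intro _
        have := Submodule.smul_mem _ a (hx' hx)
        simpa using this
    exact key u hu u.2
  obtain ⟨c, hc⟩ := (hXUconv.interior_nonempty_iff_affineSpan_eq_top).mpr hspan
  rw [mem_interior_iff_mem_nhds, Metric.mem_nhds_iff] at hc
  obtain ⟨ρ, hρ, hball⟩ := hc
  refine ⟨c, ρ, hρ, fun u hu => ?_⟩
  have : u ∈ ball c ρ := by rwa [Metric.mem_ball, dist_eq_norm]
  exact hball this

/-- Volume comparison: a ball of radius `ρ` in `ℝ^n` cannot be covered by fewer than `2 ^ n`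
balls of radius `ρ / 2`. -/
lemma two_pow_le_card_of_cover {n : ℕ} {ι : Type*} (C : Finset ι)
    (p : ι → EuclideanSpace ℝ (Fin n)) (a : EuclideanSpace ℝ (Fin n)) {ρ : ℝ} (hρ : 0 < ρ)
    (hcover : ball a ρ ⊆ ⋃ c' ∈ C, closedBall (p c') (ρ / 2)) : 2 ^ n ≤ C.card := by
  set B : ENNReal := (volume : Measure (EuclideanSpace ℝ (Fin n))) (ball 0 1) with hB
  have hBpos : 0 < B := measure_ball_pos _ _ one_pos
  have hBtop : B < ⊤ := measure_ball_lt_top
  have hfin : Module.finrank ℝ (EuclideanSpace ℝ (Fin n)) = n := finrank_euclideanSpace_fin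
  have hvol1 : (volume : Measure (EuclideanSpace ℝ (Fin n))) (ball a ρ)
      = ENNReal.ofReal (ρ ^ n) * B := by
    rw [Measure.addHaar_ball_of_pos volume a hρ, hfin]
  have hvol2 : ∀ c' : ι, (volume : Measure (EuclideanSpace ℝ (Fin n))) (closedBall (p c') (ρ / 2))
      = ENNReal.ofReal ((ρ / 2) ^ n) * B := by
    intro c'
    rw [Measure.addHaar_closedBall volume (p c') (by positivity : (0 : ℝ) ≤ ρ / 2), hfin]
  have hle : ENNReal.ofReal (ρ ^ n) * B
      ≤ (C.card : ENNReal) * (ENNReal.ofReal ((ρ / 2) ^ n) * B) := by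
    calc ENNReal.ofReal (ρ ^ n) * B
        = (volume : Measure (EuclideanSpace ℝ (Fin n))) (ball a ρ) := hvol1.symm
      _ ≤ (volume : Measure (EuclideanSpace ℝ (Fin n)))
            (⋃ c' ∈ C, closedBall (p c') (ρ / 2)) := measure_mono hcover
      _ ≤ ∑ c' ∈ C, (volume : Measure (EuclideanSpace ℝ (Fin n)))
            (closedBall (p c') (ρ / 2)) := measure_biUnion_finset_le _ _
      _ = (C.card : ENNReal) * (ENNReal.ofReal ((ρ / 2) ^ n) * B) := by
          rw [Finset.sum_congr rfl (fun c' _ => hvol2 c'), Finset.sum_const, nsmul_eq_mul]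
  -- back to real numbers
  have hB'pos : 0 < B.toReal := ENNReal.toReal_pos hBpos.ne' hBtop.ne
  have hreal : ρ ^ n * B.toReal ≤ (C.card : ℝ) * ((ρ / 2) ^ n * B.toReal) := by
    have htop : (C.card : ENNReal) * (ENNReal.ofReal ((ρ / 2) ^ n) * B) ≠ ⊤ :=
      ENNReal.mul_ne_top (ENNReal.natCast_ne_top _)
        (ENNReal.mul_ne_top ENNReal.ofReal_ne_top hBtop.ne)
    have := ENNReal.toReal_mono htop hle
    rw [ENNReal.toReal_mul, ENNReal.toReal_mul, ENNReal.toReal_mul, ENNReal.toReal_natCast,
      ENNReal.toReal_ofReal (by positivity), ENNReal.toReal_ofReal (by positivity)] at this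
    exact this
  have hpos : 0 < ρ ^ n * B.toReal := by positivity
  have h2 : (0 : ℝ) < 2 ^ n := by positivity
  have h3 : (2 : ℝ) ^ n * (ρ / 2) ^ n = ρ ^ n := by
    rw [← mul_pow]
    congr 1
    ring
  have hmul : (2 : ℝ) ^ n * (ρ ^ n * B.toReal) ≤ (C.card : ℝ) * (ρ ^ n * B.toReal) := by
    calc (2 : ℝ) ^ n * (ρ ^ n * B.toReal)
        ≤ 2 ^ n * ((C.card : ℝ) * ((ρ / 2) ^ n * B.toReal)) :=
          mul_le_mul_of_nonneg_left hreal h2.le
      _ = (C.card : ℝ) * ((2 ^ n * (ρ / 2) ^ n) * B.toReal) := by ring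
      _ = (C.card : ℝ) * (ρ ^ n * B.toReal) := by rw [h3]
  have hcard : (2 : ℝ) ^ n ≤ (C.card : ℝ) := le_of_mul_le_mul_right hmul hpos
  exact_mod_cast hcard

/-- Volume form of the key lemma: a convex doubling set containing a point together with `k`
linearly independent directions has doubling constant at least `2 ^ k`. -/
lemma two_pow_le_of_linearIndependent {X : Set E} (hX : Convex ℝ X) {N : ℕ}
    (hd : IsDoublingWith X N) {k : ℕ} (v : Fin k → E) (hv : LinearIndependent ℝ v)
    (x0 : E) (hx0 : x0 ∈ X) (hxv : ∀ i, x0 + v i ∈ X) : 2 ^ k ≤ N := by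
  classical
  set U : Submodule ℝ E := Submodule.span ℝ (Set.range v) with hU
  have : FiniteDimensional ℝ U := FiniteDimensional.span_of_finite ℝ (Set.finite_range v)
  obtain ⟨c, ρ, hρ, hball⟩ : ∃ c : U, ∃ ρ : ℝ, 0 < ρ ∧
      ∀ u : U, ‖u - c‖ < ρ → x0 + (u : E) ∈ X := exists_ball_subset hX v x0 hx0 hxv
  have hrank : Module.finrank ℝ U = k := by
    rw [hU, finrank_span_eq_card hv, Fintype.card_fin]
  have hcX : x0 + (c : E) ∈ X := hball c (by simpa using hρ)
  -- apply the doubling property to the ball of radius `ρ` about `x0 + c`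
  obtain ⟨C, hCX, hCcard, hCcov⟩ := hd (x0 + (c : E)) hcX ρ hρ
  -- coordinates on `U`
  set φ : U ≃ₗᵢ[ℝ] EuclideanSpace ℝ (Fin (Module.finrank ℝ U)) :=
    (stdOrthonormalBasis ℝ U).repr with hφ
  -- the ball of radius `ρ` about `φ c` is covered by the balls of radius `ρ / 2` about `p c'`
  have hcover : ball (φ c) ρ ⊆
      ⋃ c' ∈ C, closedBall (φ (U.orthogonalProjectionOnto (c' - x0))) (ρ / 2) := by
    intro w hw
    set u : U := φ.symm w with hu
    have hwu : w = φ u := by simp [hu]
    have huc : ‖u - c‖ < ρ := by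
      rw [Metric.mem_ball, dist_eq_norm] at hw
      rw [hwu, ← map_sub, LinearIsometryEquiv.norm_map] at hw
      exact hw
    have huX : x0 + (u : E) ∈ X := hball u huc
    have hdist : dist (x0 + (u : E)) (x0 + (c : E)) < ρ := by
      rw [dist_eq_norm]
      have : x0 + (u : E) - (x0 + (c : E)) = ((u - c : U) : E) := by
        push_cast; abel
      rw [this, ← Submodule.coe_norm]
      exact huc
    obtain ⟨c', hc'C, hc'⟩ := hCcov _ huX hdist
    simp only [Set.mem_iUnion, Metric.mem_closedBall, exists_prop]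
    refine ⟨c', hc'C, ?_⟩
    rw [hwu, dist_eq_norm, ← map_sub, LinearIsometryEquiv.norm_map]
    have hproj : u = U.orthogonalProjectionOnto (u : E) :=
      (Submodule.orthogonalProjectionOnto_mem_subspace_eq_self (K := U) u).symm
    nth_rewrite 1 [hproj]
    rw [← map_sub]
    refine le_trans (Submodule.norm_orthogonalProjectionOnto_apply_le U _) ?_
    rw [dist_eq_norm] at hc'
    have : (u : E) - (c' - x0) = x0 + (u : E) - c' := by abel
    rw [this]
    exact hc'
  have hcard := two_pow_le_card_of_cover C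
    (fun c' => φ (U.orthogonalProjectionOnto (c' - x0))) (φ c) hρ hcover
  rw [hrank] at hcard
  exact le_trans hcard hCcard

/-- A set lying in a translate of a finite-dimensional subspace `V` embeds isometrically into
the Euclidean space of dimension `dim V`. -/
lemma exists_isometric_finrank {X : Set E} (x0 : E) (V : Submodule ℝ E)
    [FiniteDimensional ℝ V] (hXV : ∀ x ∈ X, x - x0 ∈ V) :
    ∃ f : E → EuclideanSpace ℝ (Fin (Module.finrank ℝ V)),
      ∀ x ∈ X, ∀ y ∈ X, ‖f x - f y‖ = ‖x - y‖ := by
  refine ⟨fun x => (stdOrthonormalBasis ℝ V).repr (V.orthogonalProjectionOnto (x - x0)), ?_⟩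
  intro x hx y hy
  rw [← map_sub, LinearIsometryEquiv.norm_map, ← map_sub]
  have e : x - x0 - (y - x0) = x - y := by abel
  rw [e]
  have hmem : x - y ∈ V := by
    have := V.sub_mem (hXV x hx) (hXV y hy)
    rwa [e] at this
  have := Submodule.orthogonalProjectionOnto_mem_subspace_eq_self (K := V) ⟨x - y, hmem⟩
  simp only at this
  rw [this, Submodule.coe_norm]

end General

/-- Every nonempty convex subset `X` of a real inner product space `E` (in particular of the
sequence space `ℓ_2`) that is doubling with constant `N` admits an isometric embedding into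
the Euclidean space `ℝ^k` for some `k` with `2 ^ k ≤ N`. -/
theorem result {E : Type} [NormedAddCommGroup E] [InnerProductSpace ℝ E] (X : Set E)
    (hX : Convex ℝ X) (hne : X.Nonempty) (N : ℕ)
    (hd : ∀ x ∈ X, ∀ r : ℝ, 0 < r →
      ∃ C : Finset E, (∀ c ∈ C, c ∈ X) ∧ C.card ≤ N ∧
        ∀ y ∈ X, ‖y - x‖ < r → ∃ c ∈ C, ‖y - c‖ ≤ r / 2) :
    ∃ (k : ℕ) (f : E → EuclideanSpace ℝ (Fin k)), 2 ^ k ≤ N ∧
      ∀ x ∈ X, ∀ y ∈ X, ‖f x - f y‖ = ‖x - y‖ := by
  have hd' : IsDoublingWith X N := by
    intro x hx r hr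
    obtain ⟨C, hC, hcard, hcov⟩ := hd x hx r hr
    refine ⟨C, hC, hcard, fun y hy hyx => ?_⟩
    obtain ⟨c, hc, hyc⟩ := hcov y hy (by rwa [← dist_eq_norm])
    exact ⟨c, hc, by rwa [dist_eq_norm]⟩
  obtain ⟨x0, hx0⟩ := hne
  have hfd := finiteDimensional_span hX hd' x0 hx0
  obtain ⟨v, hvS, -, hvli⟩ :=
    Submodule.exists_fun_fin_finrank_span_eq ℝ ((fun x => x - x0) '' X)
  have hmem : ∀ i, x0 + v i ∈ X := by
    intro i
    obtain ⟨x, hx, hxe⟩ := hvS i
    have : x0 + v i = x := by
      rw [← hxe]; simp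
    rw [this]
    exact hx
  have hbound := two_pow_le_of_linearIndependent hX hd' v hvli x0 hx0 hmem
  obtain ⟨f, hf⟩ := exists_isometric_finrank (X := X) x0
    (Submodule.span ℝ ((fun x => x - x0) '' X))
    (fun x hx => Submodule.subset_span ⟨x, hx, rfl⟩)
  exact ⟨_, f, hbound, hf⟩

end Vale.Agent.Results.P208.ConvexDoublingLogBound
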