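import Vale.Agent.Results.P208.ConvexDoubling

/-!
P208 (Lang-Plaut problem), plain form of the hand-in `ConvexDoubling`: the same theorem with
the doubling hypothesis written out in the statement, in terms of norms, and with no
definitions of ours.

Theorem: let `E` be a real inner product space (for instance `ℓ_2`), `X` a convex subset of
`E` and `N` a natural number such that every ball of `X` (centre `x` in `X`, radius `r > 0`)
is covered by at most `N` balls of radius `r / 2` with centres in `X`.  Then some map from `E`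
to a Euclidean space `ℝ^k` of finite dimension preserves all distances between points of `X`.
-/

namespace Vale.Agent.Results.P208.ConvexDoublingPlain

theorem result {E : Type} [NormedAddCommGroup E] [InnerProductSpace ℝ E] (X : Set E)
    (hX : Convex ℝ X) (N : ℕ)
    (hd : ∀ x ∈ X, ∀ r : ℝ, 0 < r →
      ∃ C : Finset E, (∀ c ∈ C, c ∈ X) ∧ C.card ≤ N ∧
        ∀ y ∈ X, ‖y - x‖ < r → ∃ c ∈ C, ‖y - c‖ ≤ r / 2) :
    ∃ (k : ℕ) (f : E → EuclideanSpace ℝ (Fin k)),
      ∀ x ∈ X, ∀ y ∈ X, ‖f x - f y‖ = ‖x - y‖ := by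
  have hd' : Vale.Agent.Results.P208.ConvexDoubling.IsDoublingWith X N := by
    intro x hx r hr
    obtain ⟨C, hC, hcard, hcov⟩ := hd x hx r hr
    refine ⟨C, hC, hcard, fun y hy hyx => ?_⟩
    obtain ⟨c, hc, hyc⟩ := hcov y hy (by rwa [← dist_eq_norm])
    exact ⟨c, hc, by rwa [dist_eq_norm]⟩
  obtain ⟨k, f, hf⟩ := Vale.Agent.Results.P208.ConvexDoubling.result X hX N hd'
  exact ⟨k, f, fun x hx y hy => by rw [← dist_eq_norm, ← dist_eq_norm]; exact hf x hx y hy⟩

end Vale.Agent.Results.P208.ConvexDoublingPlain
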