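import Vale.Agent.Results.P208.ConvexDoublingLogBound

/-!
P208 (Lang-Plaut problem): convex subsets of arbitrary doubling sets.

Theorem: let `E` be a real inner product space (for instance `ℓ_2`), `X` any subset of `E` and
`N` a natural number such that every ball of `X` (centre `x` in `X`, radius `r > 0`) is covered
by at most `N` balls of radius `r / 2` with centres in `X`.  Then for every nonempty convex set
`K` contained in `X` there are `k` with `2 ^ k ≤ N` and a map from `E` to the Euclidean space
`ℝ^k` that preserves all distances between points of `K`.  The set `X` itself need not be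
convex; for `K = X` this is the hand-in `ConvexDoublingLogBound`.

Proof: as there, with the doubling property of `X` applied at a centre in `K`: inside the span
of `k` independent directions of `K` the set `K` contains a ball of some radius `ρ`, this ball
is covered by at most `N` balls of radius `ρ / 2`, and comparing volumes gives `2 ^ k ≤ N`.
-/

namespace Vale.Agent.Results.P208.ConvexSubsetBound

open Metric MeasureTheory Vale.Agent.Results.P208.ConvexDoubling
  Vale.Agent.Results.P208.ConvexDoublingLogBound

section General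

variable {E : Type*} [NormedAddCommGroup E] [InnerProductSpace ℝ E]

/-- Key lemma: if a doubling set `X` contains a convex set `K`, and `K` contains a point
together with `k` linearly independent directions, then the doubling constant of `X` is at
least `2 ^ k`. -/
lemma two_pow_le_of_subset {X K : Set E} (hK : Convex ℝ K) (hKX : K ⊆ X) {N : ℕ}
    (hd : IsDoublingWith X N) {k : ℕ} (v : Fin k → E) (hv : LinearIndependent ℝ v)
    (x0 : E) (hx0 : x0 ∈ K) (hxv : ∀ i, x0 + v i ∈ K) : 2 ^ k ≤ N := by
  classical
  set U : Submodule ℝ E := Submodule.span ℝ (Set.range v) with hU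
  have : FiniteDimensional ℝ U := FiniteDimensional.span_of_finite ℝ (Set.finite_range v)
  obtain ⟨c, ρ, hρ, hball⟩ : ∃ c : U, ∃ ρ : ℝ, 0 < ρ ∧
      ∀ u : U, ‖u - c‖ < ρ → x0 + (u : E) ∈ K := exists_ball_subset hK v x0 hx0 hxv
  have hrank : Module.finrank ℝ U = k := by
    rw [hU, finrank_span_eq_card hv, Fintype.card_fin]
  have hcX : x0 + (c : E) ∈ X := hKX (hball c (by simpa using hρ))
  -- apply the doubling property to the ball of radius `ρ` about `x0 + c`
  obtain ⟨C, hCX, hCcard, hCcov⟩ := hd (x0 + (c : E)) hcX ρ hρ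
  -- coordinates on `U`
  set φ : U ≃ₗᵢ[ℝ] EuclideanSpace ℝ (Fin (Module.finrank ℝ U)) :=
    (stdOrthonormalBasis ℝ U).repr with hφ
  -- the ball of radius `ρ` about `φ c` is covered by the balls of radius `ρ / 2` about `p c'`
  have hcover : ball (φ c) ρ ⊆
      ⋃ c' ∈ C, closedBall (φ (U.orthogonalProjectionOnto (c' - x0))) (ρ / 2) := by
    intro w hw
    set u : U := φ.symm w with hu
    have hwu : w = φ u := by simp [hu]
    have huc : ‖u - c‖ < ρ := by
      rw [Metric.mem_ball, dist_eq_norm] at hw
      rw [hwu, ← map_sub, LinearIsometryEquiv.norm_map] at hw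
      exact hw
    have huX : x0 + (u : E) ∈ X := hKX (hball u huc)
    have hdist : dist (x0 + (u : E)) (x0 + (c : E)) < ρ := by
      rw [dist_eq_norm]
      have : x0 + (u : E) - (x0 + (c : E)) = ((u - c : U) : E) := by
        push_cast; abel
      rw [this, ← Submodule.coe_norm]
      exact huc
    obtain ⟨c', hc'C, hc'⟩ := hCcov _ huX hdist
    simp only [Set.mem_iUnion, Metric.mem_closedBall, exists_prop]
    refine ⟨c', hc'C, ?_⟩
    rw [hwu, dist_eq_norm, ← map_sub, LinearIsometryEquiv.norm_map]
    have hproj : u = U.orthogonalProjectionOnto (u : E) :=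
      (Submodule.orthogonalProjectionOnto_mem_subspace_eq_self (K := U) u).symm
    nth_rewrite 1 [hproj]
    rw [← map_sub]
    refine le_trans (Submodule.norm_orthogonalProjectionOnto_apply_le U _) ?_
    rw [dist_eq_norm] at hc'
    have : (u : E) - (c' - x0) = x0 + (u : E) - c' := by abel
    rw [this]
    exact hc'
  have hcard := two_pow_le_card_of_cover C
    (fun c' => φ (U.orthogonalProjectionOnto (c' - x0))) (φ c) hρ hcover
  rw [hrank] at hcard
  exact le_trans hcard hCcard

/-- The span of the differences `x - x0`, `x` in a convex subset `K` of a doubling set, is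
finite-dimensional. -/
lemma finiteDimensional_span_sub {X K : Set E} (hK : Convex ℝ K) (hKX : K ⊆ X) {N : ℕ}
    (hd : IsDoublingWith X N) (x0 : E) (hx0 : x0 ∈ K) :
    FiniteDimensional ℝ (Submodule.span ℝ ((fun x => x - x0) '' K)) := by
  classical
  obtain ⟨b, hbS, hbspan, hbli⟩ := exists_linearIndependent ℝ ((fun x => x - x0) '' K)
  have hbfin : b.Finite := by
    by_contra hinf
    obtain ⟨t, htb, htcard⟩ := Set.Infinite.exists_subset_card_eq (s := b) hinf (N + 1)
    let e : Fin (N + 1) ≃ t := (Fin.castOrderIso htcard.symm).toEquiv.trans t.equivFin.symm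
    let f : Fin (N + 1) → b := fun i => ⟨(e i : E), htb (e i).2⟩
    have hf : Function.Injective f := by
      intro i j hij
      have : (e i : E) = (e j : E) := congrArg (fun z : b => (z : E)) hij
      exact e.injective (Subtype.ext this)
    have hli : LinearIndependent ℝ (fun i : Fin (N + 1) => ((f i : b) : E)) := hbli.comp f hf
    have hmem : ∀ i : Fin (N + 1), x0 + ((f i : b) : E) ∈ K := by
      intro i
      obtain ⟨x, hx, hxe⟩ := hbS (f i).2
      have : x0 + ((f i : b) : E) = x := by
        rw [← hxe]; simp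
      rw [this]
      exact hx
    have h1 := two_pow_le_of_subset hK hKX hd _ hli x0 hx0 hmem
    have h2 : N + 1 < 2 ^ (N + 1) := Nat.lt_two_pow_self
    omega
  rw [← hbspan]
  exact FiniteDimensional.span_of_finite ℝ hbfin

end General

/-- Every nonempty convex subset `K` of a doubling subset `X` (constant `N`) of a real inner
product space `E` (in particular of `ℓ_2`) admits an isometric embedding into the Euclidean
space `ℝ^k` for some `k` with `2 ^ k ≤ N`. -/
theorem result {E : Type} [NormedAddCommGroup E] [InnerProductSpace ℝ E] (X K : Set E)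
    (hK : Convex ℝ K) (hne : K.Nonempty) (hKX : K ⊆ X) (N : ℕ)
    (hd : ∀ x ∈ X, ∀ r : ℝ, 0 < r →
      ∃ C : Finset E, (∀ c ∈ C, c ∈ X) ∧ C.card ≤ N ∧
        ∀ y ∈ X, ‖y - x‖ < r → ∃ c ∈ C, ‖y - c‖ ≤ r / 2) :
    ∃ (k : ℕ) (f : E → EuclideanSpace ℝ (Fin k)), 2 ^ k ≤ N ∧
      ∀ x ∈ K, ∀ y ∈ K, ‖f x - f y‖ = ‖x - y‖ := by
  have hd' : IsDoublingWith X N := by
    intro x hx r hr
    obtain ⟨C, hC, hcard, hcov⟩ := hd x hx r hr
    refine ⟨C, hC, hcard, fun y hy hyx => ?_⟩
    obtain ⟨c, hc, hyc⟩ := hcov y hy (by rwa [← dist_eq_norm])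
    exact ⟨c, hc, by rwa [dist_eq_norm]⟩
  obtain ⟨x0, hx0⟩ := hne
  have hfd := finiteDimensional_span_sub hK hKX hd' x0 hx0
  obtain ⟨v, hvS, -, hvli⟩ :=
    Submodule.exists_fun_fin_finrank_span_eq ℝ ((fun x => x - x0) '' K)
  have hmem : ∀ i, x0 + v i ∈ K := by
    intro i
    obtain ⟨x, hx, hxe⟩ := hvS i
    have : x0 + v i = x := by
      rw [← hxe]; simp
    rw [this]
    exact hx
  have hbound := two_pow_le_of_subset hK hKX hd' v hvli x0 hx0 hmem
  obtain ⟨f, hf⟩ := exists_isometric_finrank (X := K) x0
    (Submodule.span ℝ ((fun x => x - x0) '' K))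
    (fun x hx => Submodule.subset_span ⟨x, hx, rfl⟩)
  exact ⟨_, f, hbound, hf⟩

end Vale.Agent.Results.P208.ConvexSubsetBound
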